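/-
S0066 (row 47) — package L-a (owner: helper81): region order facts of the layout and the
lemma L2 (`between_of`).  Statements verbatim from `Crest.Agent.Helper5.S0066.Spec`.
-/
import Crest.Agent.Helper5.S0066.Defs

set_option autoImplicit false

namespace Crest.Agent.Helper81.S0066

open Crest.Agent.Helper5.S0066 Line

variable {h : ℕ}

theorem Y_lt_Z (i i' : Fin (2 ^ h)) : (Y i : Line h) < Z i' := by
  rw [Line.lt_iff]
  left
  simp only [Line.k1]
  omega

theorem Y_lt_tree (i : Fin (2 ^ h)) {l : Line h} (hl : l.isTree = true) : Y i < l := by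
  rw [Line.lt_iff]
  left
  cases l <;> simp_all [Line.k1, Line.isTree]

theorem Z_lt_tree (i : Fin (2 ^ h)) {l : Line h} (hl : l.isTree = true) : Z i < l := by
  rw [Line.lt_iff]
  left
  cases l <;> simp_all [Line.k1, Line.isTree]

theorem tree_lt_crown {l : Line h} (hl : l.isTree = true) (a : Fin 59) (i : Fin (2 ^ h)) :
    l < crown a i := by
  rw [Line.lt_iff]
  left
  cases l <;> simp_all [Line.k1, Line.isTree]

theorem crown_lt_crown {a b : Fin 59} (hab : a < b) (i i' : Fin (2 ^ h)) :
    (crown a i : Line h) < crown b i' := by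
  rw [Line.lt_iff]
  right
  refine ⟨rfl, Or.inl ?_⟩
  show a.val < b.val
  exact hab

theorem crown_lt_thr (a : Fin 59) (i : Fin (2 ^ h)) (g : Grp h) (θ : Fin 4) (i' : Fin (2 ^ h)) :
    crown a i < thr g θ i' := by
  rw [Line.lt_iff]
  left
  simp only [Line.k1]
  omega

theorem thr_lt_thr (g : Grp h) {θ θ' : Fin 4} (hθ : θ < θ') (i i' : Fin (2 ^ h)) :
    thr g θ i < thr g θ' i' := by
  rw [Line.lt_iff]
  right
  refine ⟨rfl, Or.inr ⟨rfl, Or.inl ?_⟩⟩
  show θ.val < θ'.val
  exact hθ

/-- weak monotonicity between crown lines gives weak monotonicity of the crown index -/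
theorem crown_le_crown {a b : Fin 59} {i i' : Fin (2 ^ h)}
    (hle : (crown a i : Line h) ≤ crown b i') : a ≤ b := by
  rw [Line.le_iff] at hle
  simp only [Line.k1, Line.k2] at hle
  rw [Fin.le_def]
  omega

/-! ### Dyadic arithmetic for L2 -/

/-- A leaf `x` of the child class `2 c + s` of level `J` sits between the two boundaries. -/
theorem leaf_bounds (J x c sN : ℕ) (hpos : x / 2 ^ J = 2 * c + sN) :
    c * 2 ^ (J + 1) + sN * 2 ^ J ≤ x ∧ x < c * 2 ^ (J + 1) + (sN + 1) * 2 ^ J := by
  have hP : 0 < 2 ^ J := Nat.pos_of_ne_zero (by positivity)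
  have h1 : x / 2 ^ J * 2 ^ J ≤ x := Nat.div_mul_le_self x (2 ^ J)
  have h2 : x < 2 ^ J * (x / 2 ^ J + 1) := Nat.lt_mul_div_succ x hP
  rw [hpos] at h1 h2
  have e1 : c * 2 ^ (J + 1) + sN * 2 ^ J = (2 * c + sN) * 2 ^ J := by
    rw [pow_succ]; ring
  have e2 : c * 2 ^ (J + 1) + (sN + 1) * 2 ^ J = 2 ^ J * (2 * c + sN + 1) := by
    rw [pow_succ]; ring
  rw [e1, e2]
  exact ⟨h1, h2⟩

/-- A class of level `J' + 1 ≤ J` containing `yy` lies inside the class of level `J`
containing `yy`. -/
theorem sub_bounds (J' J yy c sN : ℕ) (hJ : J' + 1 ≤ J) (hpos : yy / 2 ^ J = 2 * c + sN) :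
    c * 2 ^ (J + 1) + sN * 2 ^ J ≤ yy / 2 ^ (J' + 1) * 2 ^ (J' + 1) ∧
    yy / 2 ^ (J' + 1) * 2 ^ (J' + 1) + 2 ^ (J' + 1) ≤ c * 2 ^ (J + 1) + (sN + 1) * 2 ^ J := by
  obtain ⟨m, rfl⟩ : ∃ m, J = J' + 1 + m := ⟨J - (J' + 1), by omega⟩
  set D := 2 ^ (J' + 1) with hD
  set E := 2 ^ m with hE
  have hDpos : 0 < D := Nat.pos_of_ne_zero (by positivity)
  have hEpos : 0 < E := Nat.pos_of_ne_zero (by positivity)
  have hJ' : 2 ^ (J' + 1 + m) = D * E := by rw [pow_add]
  have hJ'' : 2 ^ (J' + 1 + m + 1) = 2 * (D * E) := by rw [pow_succ, hJ']; ring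
  rw [hJ'] at hpos
  rw [hJ', hJ'']
  set a := yy / D with ha
  have hdd : a / E = 2 * c + sN := by
    rw [ha, Nat.div_div_eq_div_mul]; exact hpos
  have h1 : a / E * E ≤ a := Nat.div_mul_le_self a E
  have h2 : a < E * (a / E + 1) := Nat.lt_mul_div_succ a hEpos
  rw [hdd] at h1 h2
  constructor
  · calc c * (2 * (D * E)) + sN * (D * E) = (2 * c + sN) * E * D := by ring
      _ ≤ a * D := Nat.mul_le_mul_right D h1
  · have h3 : a + 1 ≤ E * (2 * c + sN + 1) := h2
    calc a * D + D = (a + 1) * D := by ring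
      _ ≤ E * (2 * c + sN + 1) * D := Nat.mul_le_mul_right D h3
      _ = c * (2 * (D * E)) + (sN + 1) * (D * E) := by ring

/-- **L2** (used by farness).  Conversely every tree line of the subtree of the child `2 c + s`
lies strictly between the `kLo s`-cores and the `kHi s`-cores of the class `c`. -/
theorem between_of {j : Fin h} {s : Bool} {y y' : Fin (2 ^ h)} {l : Line h}
    (hyy : y.val / 2 ^ (j.val + 1) = y'.val / 2 ^ (j.val + 1))
    (hl : l.isTree = true) (hlvl : l.lvl ≤ j.val)
    (hpos : l.pos / 2 ^ j.val = 2 * (y.val / 2 ^ (j.val + 1)) + s.toNat) :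
    core j (kLo s) y < l ∧ l < core j (kHi s) y' := by
  have hj := j.isLt
  have hP : 2 ^ (j.val + 1) = 2 * 2 ^ j.val := by rw [pow_succ]; ring
  have e1 : (2 = 0) = False := by simp
  have e2 : (2 = 1) = False := by simp
  have e3 : (1 + 1 = 0) = False := by simp
  have e4 : (1 + 1 = 1) = False := by simp
  cases l with
  | leaf x =>
    simp only [Line.pos] at hpos
    obtain ⟨b1, b2⟩ := leaf_bounds j.val x.val _ _ hpos
    rw [Line.lt_iff, Line.lt_iff]
    simp only [Line.k1, Line.k2, Line.k3, Line.k4, kLo_val, kHi_val]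
    rw [← hyy]
    clear hpos
    cases s
    · simp only [Bool.toNat_false] at b1 b2 ⊢
      simp only [lt_self_iff_false, false_or, true_and, if_true, zero_add, one_ne_zero, if_false]
      constructor <;> omega
    · simp only [Bool.toNat_true] at b1 b2 ⊢
      simp only [lt_self_iff_false, false_or, true_and, if_true, one_ne_zero, if_false, e3, e4]
      constructor <;> omega
  | core j' k' y'' =>
    simp only [Line.lvl] at hlvl
    simp only [Line.pos] at hpos
    have hj' := j'.isLt
    obtain ⟨b1, b2⟩ := sub_bounds j'.val j.val y''.val _ _ hlvl hpos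
    have hD : 2 ^ (j'.val + 1) = 2 * 2 ^ j'.val := by rw [pow_succ]; ring
    have hD0 : 0 < 2 ^ j'.val := Nat.pos_of_ne_zero (by positivity)
    have hk := k'.isLt
    rw [Line.lt_iff, Line.lt_iff]
    simp only [Line.k1, Line.k2, Line.k3, Line.k4, kLo_val, kHi_val]
    rw [← hyy]
    clear hpos
    have hkc : k'.val = 0 ∨ k'.val = 1 ∨ k'.val = 2 := by omega
    cases s
    · simp only [Bool.toNat_false] at b1 b2 ⊢
      rcases hkc with hk0 | hk0 | hk0
      · simp only [hk0, lt_self_iff_false, false_or, true_and, if_true, zero_add, one_ne_zero,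
          if_false]
        constructor <;> omega
      · simp only [hk0, lt_self_iff_false, false_or, true_and, if_true, zero_add, one_ne_zero,
          if_false]
        constructor <;> omega
      · simp only [hk0, e1, e2, lt_self_iff_false, false_or, true_and, if_true, zero_add,
          one_ne_zero, if_false]
        constructor <;> omega
    · simp only [Bool.toNat_true] at b1 b2 ⊢
      rcases hkc with hk0 | hk0 | hk0
      · simp only [hk0, e3, e4, lt_self_iff_false, false_or, true_and, if_true, one_ne_zero,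
          if_false]
        constructor <;> omega
      · simp only [hk0, e3, e4, lt_self_iff_false, false_or, true_and, if_true, one_ne_zero,
          if_false]
        constructor <;> omega
      · simp only [hk0, e1, e2, lt_self_iff_false, false_or, true_and, if_true,
          one_ne_zero, if_false]
        constructor <;> omega
  | Y i => simp [Line.isTree] at hl
  | Z i => simp [Line.isTree] at hl
  | crown a i => simp [Line.isTree] at hl
  | thr g θ i => simp [Line.isTree] at hl

end Crest.Agent.Helper81.S0066
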