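/-
S0066 (row 47) — package F4a (second track, helper81): the disjoint 4-cycle count.
Statement verbatim from `Crest.Agent.Helper5.S0066.Spec.four_cycle_count`.
-/
import Mathlib

set_option autoImplicit false

namespace Crest.Agent.Helper81.S0066

/-- `m` distinct elements of a finset with at least `m` elements. -/
theorem exists_inj_of_le_card {γ : Type*} (S : Finset γ) (m : ℕ) (hS : m ≤ S.card) :
    ∃ f : Fin m → γ, Function.Injective f ∧ ∀ i, f i ∈ S := by
  obtain ⟨T, hTS, hT⟩ := Finset.exists_subset_card_eq hS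
  let e := (Finset.equivFinOfCardEq hT).symm
  exact ⟨fun i => (e i : γ), fun i j hij => e.injective (Subtype.ext hij), fun i => hTS (e i).2⟩

/-- **F4a.** Disjoint 4-cycles: if every 4-cycle `u — u' — w — w'` meets `D`, then `|D| ≥ m²`. -/
theorem four_cycle_count {α β : Type*} [DecidableEq α] [DecidableEq β]
    (U W : Finset α) (U' W' : Finset β) (hUW : Disjoint U W) (hUW' : Disjoint U' W') (m : ℕ)
    (hU : m ≤ U.card) (hW : m ≤ W.card) (hU' : m ≤ U'.card) (hW' : m ≤ W'.card)
    (D : Finset (α × β))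
    (hD : ∀ u ∈ U, ∀ w ∈ W, ∀ u' ∈ U', ∀ w' ∈ W',
      (u, u') ∈ D ∨ (u, w') ∈ D ∨ (w, u') ∈ D ∨ (w, w') ∈ D) :
    m * m ≤ D.card := by
  obtain ⟨u, hu_inj, hu⟩ := exists_inj_of_le_card U m hU
  obtain ⟨w, hw_inj, hw⟩ := exists_inj_of_le_card W m hW
  obtain ⟨u', hu'_inj, hu'⟩ := exists_inj_of_le_card U' m hU'
  obtain ⟨w', hw'_inj, hw'⟩ := exists_inj_of_le_card W' m hW'
  have hex : ∀ p : Fin m × Fin m, ∃ c ∈ D,
      (c.1 = u p.1 ∨ c.1 = w p.1) ∧ (c.2 = u' p.2 ∨ c.2 = w' p.2) := by
    intro p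
    rcases hD (u p.1) (hu p.1) (w p.1) (hw p.1) (u' p.2) (hu' p.2) (w' p.2) (hw' p.2)
      with h | h | h | h
    · exact ⟨_, h, Or.inl rfl, Or.inl rfl⟩
    · exact ⟨_, h, Or.inl rfl, Or.inr rfl⟩
    · exact ⟨_, h, Or.inr rfl, Or.inl rfl⟩
    · exact ⟨_, h, Or.inr rfl, Or.inr rfl⟩
  choose c hcD hc using hex
  have hinj : Function.Injective c := by
    intro p q hpq
    have h1 : p.1 = q.1 := by
      have a := (hc p).1
      have b := (hc q).1
      rw [hpq] at a
      rcases a with a | a <;> rcases b with b | b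
      · exact hu_inj (a.symm.trans b)
      · exact absurd (hw q.1) (Finset.disjoint_left.mp hUW (by rw [← b, a]; exact hu p.1))
      · exact absurd (hw p.1) (Finset.disjoint_left.mp hUW (by rw [← a, b]; exact hu q.1))
      · exact hw_inj (a.symm.trans b)
    have h2 : p.2 = q.2 := by
      have a := (hc p).2
      have b := (hc q).2
      rw [hpq] at a
      rcases a with a | a <;> rcases b with b | b
      · exact hu'_inj (a.symm.trans b)
      · exact absurd (hw' q.2) (Finset.disjoint_left.mp hUW' (by rw [← b, a]; exact hu' p.2))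
      · exact absurd (hw' p.2) (Finset.disjoint_left.mp hUW' (by rw [← a, b]; exact hu' q.2))
      · exact hw'_inj (a.symm.trans b)
    exact Prod.ext h1 h2
  have hcard := Finset.card_le_card_of_injOn (s := (Finset.univ : Finset (Fin m × Fin m)))
    (t := D) c (fun p _ => hcD p) hinj.injOn
  simpa using hcard

end Crest.Agent.Helper81.S0066
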